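import Vale.Agent.P240.R2.H651.R1.G
import Vale.Agent.P240.H195.Few
import Vale.Agent.P240.R2.H296.OForm

/-!
`FewAut 2` for `PΩ` of a nondegenerate symmetric form of odd dimension `n ≥ 5` over a prime field of
odd characteristic.
-/

set_option autoImplicit false
set_option linter.all false

namespace Vale.Agent.P240.R2.H651.R1

open Subgroup Matrix Vale.Agent.P240.H195 Vale.Agent.P240.R2

universe u v

attribute [local instance] starRingOfComm

/-- **`FewAut 2` for `Ω_n(F)`**, `n ≥ 5` odd, `F` a prime field of odd characteristic -/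
theorem fewAut_POm_two {F : Type u} [Field F] [Finite F] (hF : (Nat.card F).Prime)
    (h2 : (2 : F) ≠ 0) {n : ℕ} (hn5 : 5 ≤ n) (hn : n % 2 = 1) {A : Matrix (Fin n) (Fin n) F}
    (hA : Aᵀ = A) (hA0 : A.det ≠ 0) {L : Type v} [Group L] (hs : IsSimpleGroup L)
    (e : L ≃* OF.POm A) : FewAut 2 L := by
  have : Fintype F := Fintype.ofFinite F
  obtain ⟨m, rfl⟩ : ∃ m, n = m + 1 := ⟨n - 1, by omega⟩
  obtain ⟨P, c, hc, hP⟩ := OF.similar_odd h2 (by
    rw [Nat.even_iff]
    omega) hA hA0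
  obtain ⟨f⟩ := OF.nonempty_POm hc hP
  obtain ⟨g⟩ := H613.I5.pgu_equiv (K := F) (n := m + 1) (fun x => rfl) h2
    (Nat.odd_iff.2 (by omega))
  have g' : ↥(commutator (AS.PGU F (m + 1))) ≃*
      ↥(commutator ↥(H487.CG.GJ (m + 1) (RingEquiv.refl F))) :=
    ((commutator (AS.PGU F (m + 1))).equivMapOfInjective (g : AS.PGU F (m + 1) →*
      ↥(H487.CG.GJ (m + 1) (RingEquiv.refl F))) g.injective).trans
        (MulEquiv.subgroupCongr (OF.map_comm g))
  have k : L ≃* ↥(commutator ↥(H487.CG.GJ (m + 1) (RingEquiv.refl F))) :=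
    (e.trans (f.trans OF.pomOne)).trans g'
  exact FewAut.congr k.symm (fewAut_omega_two hF (by omega) (by omega) h2 k.symm.isSimpleGroup)

end Vale.Agent.P240.R2.H651.R1
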