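import Vale.Agent.P240.R2.H997.ParFix

/-!
Automorphisms of simple groups with a split BN-pair: normalization modulo inner automorphisms, and
the action on the diagram if it is a path.
-/

set_option autoImplicit false

namespace Vale.Agent.P240.R2.H651.R1

open Subgroup Vale.Agent.P240.K Vale.Agent.P240.H195 Vale.Agent.P240.R2.H997

universe u

section
variable {L : Type u} [Group L] {B N U : Subgroup L} {S : Set L} {r : ℕ}

/-- every automorphism stabilizes `B` and the standard opposite chamber after an inner change -/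
lemma exists_norm (h : SB r B N U S) [Finite L] (hr : r.Prime) {n₀ : L} (hn₀ : n₀ ∈ N)
    (hopp : ∀ x ∈ U, n₀ * x * n₀⁻¹ ∈ U → x = 1) (f : MulAut L) :
    ∃ g : L, am ((MulAut.conj g)⁻¹ * f) B = B ∧
      am ((MulAut.conj g)⁻¹ * f) (cj n₀ B) = cj n₀ B := by
  have hlong := h.long_of_opp hr hn₀ hopp
  obtain ⟨g, hg⟩ := h.exists_conj hr f
  have e1 : (MulAut.conj g)⁻¹ = MulAut.conj g⁻¹ := (map_inv _ _).symm
  have he₀B : am ((MulAut.conj g)⁻¹ * f) B = B := by
    rw [am_mul, hg, e1, am_conj, ← cj_mul, inv_mul_cancel, cj_one]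
  have hC : Opp B S (am ((MulAut.conj g)⁻¹ * f) (cj n₀ B)) :=
    opp_am h he₀B ((h.opp_iff hr hlong).2 ⟨1, one_mem _, by rw [one_mul]⟩)
  obtain ⟨u, hu, hue⟩ := (h.opp_iff hr hlong).1 hC
  have hu1 : (MulAut.conj u)⁻¹ = MulAut.conj u⁻¹ := (map_inv _ _).symm
  refine ⟨g * u, ?_, ?_⟩
  · rw [map_mul, mul_inv_rev, mul_assoc, am_mul, he₀B, hu1, am_conj, cj_self (inv_mem (h.le hu))]
  · rw [map_mul, mul_inv_rev, mul_assoc, am_mul, hue, hu1, am_conj, ← cj_mul, inv_mul_cancel_left]

end

/-- an automorphism of a path is trivial or the reversal -/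
theorem path_perm_or {l : ℕ} (hl : 0 < l) (π : Equiv.Perm (Fin l))
    (hadj : ∀ i j : Fin l, i.val + 1 = j.val → (π i).val + 1 = (π j).val ∨ (π j).val + 1 = (π i).val)
    (hadj' : ∀ i j : Fin l, i.val + 1 = j.val →
      (π⁻¹ i).val + 1 = (π⁻¹ j).val ∨ (π⁻¹ j).val + 1 = (π⁻¹ i).val) :
    π = 1 ∨ ∀ i, (π i).val + i.val + 1 = l := by
  -- the maps do not increase distances
  have key : ∀ σ : Equiv.Perm (Fin l), (∀ i j : Fin l, i.val + 1 = j.val →
      (σ i).val + 1 = (σ j).val ∨ (σ j).val + 1 = (σ i).val) →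
      ∀ (d : ℕ) (i j : Fin l), i.val + d = j.val →
        (σ i).val ≤ (σ j).val + d ∧ (σ j).val ≤ (σ i).val + d := by
    intro σ hσ d
    induction d with
    | zero =>
      intro i j hij
      have : i = j := Fin.ext (by simpa using hij)
      subst this
      simp
    | succ d ih =>
      intro i j hij
      have hj := j.2
      have h1 := ih i ⟨i.val + d, by omega⟩ rfl
      have h2 := hσ ⟨i.val + d, by omega⟩ j (by simp only []; omega)
      omega
  have k1 := key π hadj
  have k2 := key π⁻¹ hadj'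
  have hinv : ∀ x, π⁻¹ (π x) = x := π.symm_apply_apply
  have h0' : ∀ i : Fin l, (π i).val = (π ⟨0, hl⟩).val + i.val ∨
      (π i).val + i.val = (π ⟨0, hl⟩).val := by
    intro i
    have h1 := k1 i.val ⟨0, hl⟩ i (by simp)
    rcases le_total (π ⟨0, hl⟩).val (π i).val with h2 | h2
    · have h3 := k2 ((π i).val - (π ⟨0, hl⟩).val) (π ⟨0, hl⟩) (π i) (by omega)
      simp only [hinv] at h3
      omega
    · have h3 := k2 ((π ⟨0, hl⟩).val - (π i).val) (π i) (π ⟨0, hl⟩) (by omega)
      simp only [hinv] at h3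
      omega
  have hend : (π ⟨0, hl⟩).val = 0 ∨ (π ⟨0, hl⟩).val + 1 = l := by
    have h1 := h0' ⟨l - 1, by omega⟩
    have h2 := (π ⟨l - 1, by omega⟩).2
    have h3 := (π ⟨0, hl⟩).2
    simp only [] at h1
    omega
  rcases hend with h1 | h1
  · left
    ext i
    have h2 := h0' i
    rw [Equiv.Perm.one_apply]
    omega
  · right
    intro i
    have h2 := h0' i
    have h3 := (π i).2
    omega

section
variable {L : Type u} [Group L] {B N U : Subgroup L} {S : Set L} {r : ℕ}

/-- **path-shaped diagrams**: an automorphism that stabilizes `B` stabilizes the minimal parabolic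
subgroups or reverses their order -/
theorem par_path_or (h : SB r B N U S) [Finite L] {l : ℕ} (hl : 0 < l) (s : Fin l → L)
    (hs : ∀ i, s i ∈ S) (hall : ∀ t ∈ S, ∃ i, (s i)⁻¹ * t ∈ B)
    (hinj : ∀ i j, (s i)⁻¹ * s j ∈ B → i = j)
    (hnc : ∀ i j : Fin l, i.val + 1 = j.val → (s j * s i)⁻¹ * (s i * s j) ∉ B)
    (hc : ∀ i j : Fin l, i.val + 1 < j.val → (s j * s i)⁻¹ * (s i * s j) ∈ B)
    {e : MulAut L} (he : am e B = B) :
    (∀ t ∈ S, am e (Par B t) = Par B t) ∨
      ∀ i j : Fin l, i.val + j.val + 1 = l → am e (Par B (s i)) = Par B (s j) := by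
  obtain ⟨π, hπ1, hπ2, -, -⟩ := par_perm h s hs hall hinj he
  have hcomm : ∀ i j : Fin l, (s j * s i)⁻¹ * (s i * s j) ∈ B →
      (s i * s j)⁻¹ * (s j * s i) ∈ B := by
    intro i j h1
    have := inv_mem h1
    rwa [mul_inv_rev, inv_inv] at this
  have hrel : ∀ i j : Fin l, i ≠ j → (¬ (i.val + 1 = j.val ∨ j.val + 1 = i.val)) →
      (s j * s i)⁻¹ * (s i * s j) ∈ B := by
    intro i j hij hcon
    have hij' : i.val ≠ j.val := fun h => hij (Fin.ext h)
    push Not at hcon
    rcases lt_or_gt_of_ne hij' with h2 | h2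
    · exact hc i j (by omega)
    · exact hcomm j i (hc j i (by omega))
  have hrel' : ∀ i j : Fin l, (i.val + 1 = j.val ∨ j.val + 1 = i.val) →
      (s j * s i)⁻¹ * (s i * s j) ∉ B := by
    rintro i j (h1 | h1)
    · exact hnc i j h1
    · exact fun h2 => hnc j i h1 (hcomm i j h2)
  have k1 : ∀ i j : Fin l, i.val + 1 = j.val →
      (π i).val + 1 = (π j).val ∨ (π j).val + 1 = (π i).val := by
    intro i j hij
    by_contra hcon
    have hne : π i ≠ π j := by
      intro h1
      have := π.injective h1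
      subst this
      omega
    exact hrel' i j (Or.inl hij) ((hπ2 i j).2 (hrel _ _ hne hcon))
  have k2 : ∀ i j : Fin l, i.val + 1 = j.val →
      (π⁻¹ i).val + 1 = (π⁻¹ j).val ∨ (π⁻¹ j).val + 1 = (π⁻¹ i).val := by
    intro i j hij
    by_contra hcon
    have hne : π⁻¹ i ≠ π⁻¹ j := by
      intro h1
      have := π⁻¹.injective h1
      subst this
      omega
    have h1 := (hπ2 (π⁻¹ i) (π⁻¹ j)).1 (hrel _ _ hne hcon)
    have h2 : ∀ x, π (π⁻¹ x) = x := π.apply_symm_apply
    rw [h2, h2] at h1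
    exact hrel' i j (Or.inl hij) h1
  rcases path_perm_or hl π k1 k2 with h1 | h1
  · exact Or.inl (par_fix_of_perm h hs hall hπ1 h1)
  · right
    intro i j hij
    have h2 := h1 i
    have h3 : π i = j := Fin.ext (by omega)
    rw [hπ1, h3]

end

end Vale.Agent.P240.R2.H651.R1
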