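import Vale.Agent.P240.R2.H195.OmRig

/-!
The root groups of the simple roots of `Ω_n(F)`, `n` odd: a commutation criterion that distinguishes
the two ends of the diagram, and coordinates.
-/

set_option autoImplicit false
set_option linter.all false

namespace Vale.Agent.P240.R2.H651.R1

open Subgroup Matrix Vale.Agent.P240.H195 Vale.Agent.P240.R2.H487.CG Vale.Agent.P240.K
  Vale.Agent.P240.R2.H775.RG Vale.Agent.P240.R2.H195.Om

lemma one_add_comm {R : Type*} [Ring R] {N Z : R} (h : N * Z = Z * N) :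
    (1 + N) * (1 + Z) = (1 + Z) * (1 + N) := by
  rw [add_mul, mul_add, mul_add, add_mul, mul_add, mul_add, h, one_mul, one_mul, mul_one, one_mul,
    mul_one]
  abel

section
variable {F : Type*} [Field F] {n : Type*} [Fintype n] [DecidableEq n]

lemma comm_key {Y Y' : Matrix n n F} (p0 p1 p2 p3 : n) (c : F)
    (hr : ∀ v, Y' p0 v = if v = p0 then 1 else 0) (hc : ∀ u, Y u p3 = if u = p3 then 1 else 0)
    (z01 : Y p0 p1 = 0) (z03 : Y p0 p3 = 0) (z23 : Y p2 p3 = 0)
    (z01' : Y' p0 p1 = 0) (z03' : Y' p0 p3 = 0) (z23' : Y' p2 p3 = 0) (h : Y p2 p1 = Y' p2 p1) :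
    (single p1 p0 c + single p3 p2 c) * (Y * (single p1 p0 c + single p3 p2 c) * Y') =
      (Y * (single p1 p0 c + single p3 p2 c) * Y') * (single p1 p0 c + single p3 p2 c) := by
  set N := single p1 p0 c + single p3 p2 c with hN
  have k : ∀ Z : Matrix n n F, Z p0 p1 = 0 → Z p0 p3 = 0 → Z p2 p3 = 0 →
      N * Z * N = single p3 p0 (c * Z p2 p1 * c) := by
    intro Z h1 h2 h3
    rw [hN, Matrix.add_mul, Matrix.add_mul, Matrix.mul_add, Matrix.mul_add,
      single_mul_mul_single, single_mul_mul_single, single_mul_mul_single, single_mul_mul_single,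
      h1, h2, h3]
    simp
  have k1 := k Y z01 z03 z23
  have k2 := k Y' z01' z03' z23'
  have k3 : ∀ κ : F, single p3 p0 κ * Y' = single p3 p0 κ := by
    intro κ
    ext u v
    rw [Matrix.mul_apply, Finset.sum_eq_single p0]
    · rw [hr]
      simp only [single_apply]
      by_cases hv : v = p0
      · subst hv; simp
      · simp [hv, Ne.symm hv]
    · intro b _ hb
      simp [single_apply, Ne.symm hb]
    · simp
  have k4 : ∀ κ : F, Y * single p3 p0 κ = single p3 p0 κ := by
    intro κ
    ext u v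
    rw [Matrix.mul_apply, Finset.sum_eq_single p3]
    · rw [hc]
      simp only [single_apply]
      by_cases hv : u = p3
      · subst hv; simp
      · simp [hv, Ne.symm hv]
    · intro b _ hb
      simp [single_apply, Ne.symm hb]
    · simp
  calc N * (Y * N * Y') = (N * Y * N) * Y' := by simp only [Matrix.mul_assoc]
    _ = Y * (N * Y' * N) := by rw [k1, k2, k3, k4, h]
    _ = _ := by simp only [Matrix.mul_assoc]

lemma noncomm_key {x y A : Matrix n n F} {a a' b : F} {j0 j1 j2 j3 : n} (h01 : j0 ≠ j1)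
    (h12 : j1 ≠ j2) (h02 : j0 ≠ j2) (h13 : j1 ≠ j3) (h23 : j2 ≠ j3) (h03 : j0 ≠ j3)
    (hA : A * y = y * x) (hxA : x * A = A * x)
    (x3 : ∀ k, x j3 k = if k = j3 then 1 else if k = j2 then a else if k = j1 then a' else 0)
    (xc0 : ∀ k, x k j0 = if k = j0 then 1 else 0) (x11 : x j1 j1 = 1)
    (x21 : x j2 j1 = a) (yc0 : ∀ k, y k j0 = if k = j0 then 1 else if k = j1 then b else 0)
    (yc1 : ∀ k, y k j1 = if k = j1 then 1 else 0) (yr2 : ∀ k, y j2 k = if k = j2 then 1 else 0)
    (yr1 : ∀ k, y j1 k = if k = j1 then 1 else if k = j0 then b else 0) (x01 : x j0 j1 = 0) :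
    a * a * b = 0 := by
  have eA : ∀ u v, (A * y) u v = (y * x) u v := fun u v => by rw [hA]
  have eX : ∀ u v, (x * A) u v = (A * x) u v := fun u v => by rw [hxA]
  -- columns of `A y`
  have c1 : ∀ u, (A * y) u j1 = A u j1 := by
    intro u
    rw [Matrix.mul_apply, Finset.sum_eq_single j1]
    · rw [yc1, if_pos rfl, mul_one]
    · intro k _ hk
      rw [yc1, if_neg hk, mul_zero]
    · simp
  have c0 : ∀ u, (A * y) u j0 = A u j0 + A u j1 * b := by
    intro u
    rw [Matrix.mul_apply, ← Finset.sum_subset (Finset.subset_univ {j0, j1})]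
    · rw [Finset.sum_pair h01, yc0, yc0, if_pos rfl, if_neg h01.symm, if_pos rfl, mul_one]
    · intro k _ hk
      simp only [Finset.mem_insert, Finset.mem_singleton, not_or] at hk
      rw [yc0, if_neg hk.1, if_neg hk.2, mul_zero]
  -- rows of `y x`
  have r2 : ∀ v, (y * x) j2 v = x j2 v := by
    intro v
    rw [Matrix.mul_apply, Finset.sum_eq_single j2]
    · rw [yr2, if_pos rfl, one_mul]
    · intro k _ hk
      rw [yr2, if_neg hk, zero_mul]
    · simp
  have r1 : ∀ v, (y * x) j1 v = x j1 v + b * x j0 v := by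
    intro v
    rw [Matrix.mul_apply, ← Finset.sum_subset (Finset.subset_univ {j1, j0})]
    · rw [Finset.sum_pair h01.symm, yr1, yr1, if_pos rfl, if_neg h01, if_pos rfl, one_mul]
    · intro k _ hk
      simp only [Finset.mem_insert, Finset.mem_singleton, not_or] at hk
      rw [yr1, if_neg hk.1, if_neg hk.2, zero_mul]
  have a11 : A j1 j1 = 1 := by
    have := eA j1 j1
    rw [c1, r1, x11, x01, mul_zero, add_zero] at this
    exact this
  have a21 : A j2 j1 = a := by
    have := eA j2 j1
    rw [c1, r2, x21] at this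
    exact this
  have a10 : A j1 j0 = 0 := by
    have := eA j1 j0
    rw [c0, r1, xc0, xc0, if_neg h01.symm, if_pos rfl, a11] at this
    linear_combination this
  have a20 : A j2 j0 = - (a * b) := by
    have := eA j2 j0
    rw [c0, r2, xc0, if_neg h02.symm, a21] at this
    linear_combination this
  have h1 : (x * A) j3 j0 = A j3 j0 + a * A j2 j0 + a' * A j1 j0 := by
    rw [Matrix.mul_apply, ← Finset.sum_subset (Finset.subset_univ {j3, j2, j1})]
    · rw [Finset.sum_insert (by simp [h23.symm, h13.symm]), Finset.sum_pair h12.symm, x3, x3, x3,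
        if_pos rfl, if_neg h23, if_pos rfl, if_neg h13, if_neg h12, if_pos rfl, one_mul]
      ring
    · intro k _ hk
      simp only [Finset.mem_insert, Finset.mem_singleton, not_or] at hk
      rw [x3, if_neg hk.1, if_neg hk.2.1, if_neg hk.2.2, zero_mul]
  have h2 : (A * x) j3 j0 = A j3 j0 := by
    rw [Matrix.mul_apply, Finset.sum_eq_single j0]
    · rw [xc0, if_pos rfl, mul_one]
    · intro k _ hk
      rw [xc0, if_neg hk, mul_zero]
    · simp
  have h3 := eX j3 j0
  rw [h1, h2, a10, a20] at h3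
  linear_combination -h3

end

section
variable {F : Type*} [Field F] [Finite F] {m : ℕ}

/-- the first subdiagonal of unipotent lower triangular matrices is additive -/
lemma lou_add {A A' : SLm m F} (hA : LoU A) (hA' : LoU A') (i : Fin m) :
    (A * A').1 i.succ i.castSucc = A.1 i.succ i.castSucc + A'.1 i.succ i.castSucc := by
  rw [sl_mul, ← Finset.sum_subset (Finset.subset_univ {i.succ, i.castSucc})]
  · rw [Finset.sum_pair (cs_ne i).symm, hA.2, hA'.2, one_mul, mul_one, add_comm]
  · intro k _ hk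
    simp only [Finset.mem_insert, Finset.mem_singleton, not_or] at hk
    rcases lt_or_ge k i.castSucc with h | h
    · rw [hA'.1 k i.castSucc h, mul_zero]
    · have h1 : i.succ < k := by
        rw [Fin.lt_def, Fin.val_succ]
        rw [Fin.le_def, Fin.val_castSucc] at h
        have h2 := hk.1
        have h3 := hk.2
        rw [Fin.ext_iff, Fin.val_succ] at h2
        rw [Fin.ext_iff, Fin.val_castSucc] at h3
        omega
      rw [hA.1 _ _ h1, zero_mul]

lemma lou_one : LoU (1 : SLm m F) := by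
  refine ⟨fun i j hij => ?_, fun i => ?_⟩
  · rw [sl_one, if_neg hij.ne]
  · rw [sl_one, if_pos rfl]

lemma lou_inv {A : SLm m F} (hA : LoU A) : LoU A⁻¹ := by
  obtain ⟨n, hn⟩ := exists_mon (F := F) (m := m) Fin.revPerm
  rw [lou_iff hn] at hA ⊢
  have : n⁻¹ * A⁻¹ * n = (n⁻¹ * A * n)⁻¹ := by group
  rw [this]
  exact inv_mem hA

lemma lou_inv_apply {A : SLm m F} (hA : LoU A) (i : Fin m) :
    (A⁻¹).1 i.succ i.castSucc = - A.1 i.succ i.castSucc := by
  have h1 := lou_add hA (lou_inv hA) i
  rw [mul_inv_cancel, sl_one, if_neg (cs_ne i).symm] at h1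
  linear_combination -h1

/-- the first root group commutes with its conjugates -/
lemma comm_C0 {i : Fin m} (hi : 2 * i.val + 2 < m) (h0 : i.val = 0) {x y : SLm m F}
    (hx : th (rf F) x = x) (hxl : LoU x) (hxp : Pt (sw i * sw (Fin.rev i)) x)
    (hy : LoU y) (h : y.1 (Fin.rev i).castSucc i.succ = (y⁻¹).1 (Fin.rev i).castSucc i.succ) :
    x * (y * x * y⁻¹) = (y * x * y⁻¹) * x := by
  have hy' := lou_inv hy
  obtain ⟨c, hc⟩ : ∃ c, x = yC (rf F) i c := ⟨_, C_sym hrf hi hx hxl hxp⟩
  have hrv : (Fin.rev i).val = m - (i.val + 1) := Fin.val_rev i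
  have hlt01 : i.castSucc < i.succ := cs_lt i
  have hlt03 : i.castSucc < (Fin.rev i).succ := by
    rw [Fin.lt_def, Fin.val_castSucc, Fin.val_succ]; omega
  have hlt23 : (Fin.rev i).castSucc < (Fin.rev i).succ := cs_lt _
  have hxm : x.1 = 1 + (single i.succ i.castSucc c +
      single (Fin.rev i).succ (Fin.rev i).castSucc c) := by
    ext u v
    rw [hc, yC, C_apply hi, Matrix.add_apply, Matrix.add_apply, Matrix.one_apply, single_apply,
      single_apply]
    have e1 : (u = (Fin.rev i).succ ∧ v = (Fin.rev i).castSucc) ↔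
      ((Fin.rev i).succ = u ∧ (Fin.rev i).castSucc = v) := by
      constructor <;> rintro ⟨a, b⟩ <;> exact ⟨a.symm, b.symm⟩
    have e2 : (u = i.succ ∧ v = i.castSucc) ↔ (i.succ = u ∧ i.castSucc = v) := by
      constructor <;> rintro ⟨a, b⟩ <;> exact ⟨a.symm, b.symm⟩
    simp only [e1, e2]
    change (if u = v then (1 : F) else 0) + (if _ then c else 0) + (if _ then c else 0) =
      (if u = v then (1 : F) else 0) + ((if _ then c else 0) + (if _ then c else 0))
    ring
  have hYY : y.1 * (y⁻¹).1 = 1 := by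
    rw [← SpecialLinearGroup.coe_mul, mul_inv_cancel, SpecialLinearGroup.coe_one]
  have hkey := comm_key (Y := y.1) (Y' := (y⁻¹).1) i.castSucc i.succ (Fin.rev i).castSucc
    (Fin.rev i).succ c (fun v => ?_) (fun u => ?_) (hy.1 _ _ hlt01) (hy.1 _ _ hlt03)
    (hy.1 _ _ hlt23) (hy'.1 _ _ hlt01) (hy'.1 _ _ hlt03) (hy'.1 _ _ hlt23) h
  · apply Subtype.ext
    rw [SpecialLinearGroup.coe_mul, SpecialLinearGroup.coe_mul, SpecialLinearGroup.coe_mul,
      SpecialLinearGroup.coe_mul]
    change x.1 * (y.1 * x.1 * (y⁻¹).1) = (y.1 * x.1 * (y⁻¹).1) * x.1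
    set N := single i.succ i.castSucc c + single (Fin.rev i).succ (Fin.rev i).castSucc c with hN
    have h1 : y.1 * x.1 * (y⁻¹).1 = 1 + y.1 * N * (y⁻¹).1 := by
      rw [hxm, Matrix.mul_add, Matrix.add_mul, Matrix.mul_one, hYY]
    rw [h1, hxm]
    exact one_add_comm hkey
  · by_cases hv : v = i.castSucc
    · rw [hv, if_pos rfl, hy'.2]
    · rw [if_neg hv, hy'.1]
      rw [Fin.lt_def, Fin.val_castSucc, h0]
      rw [Fin.ext_iff, Fin.val_castSucc] at hv
      omega
  · by_cases hu : u = (Fin.rev i).succ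
    · rw [hu, if_pos rfl, hy.2]
    · rw [if_neg hu, hy.1]
      rw [Fin.lt_def, Fin.val_succ, hrv]
      rw [Fin.ext_iff, Fin.val_succ, hrv] at hu
      have := u.2
      omega

/-- the root group of the short simple root does not commute with its conjugates -/
lemma noncomm_B {i i' : Fin m} (hi : 2 * i.val + 2 = m) (hi' : i'.val + 1 = i.val) {x y : SLm m F}
    (hx : th (rf F) x = x) (hxl : LoU x)
    (hxp : Pt (Equiv.swap i.castSucc (Fin.rev i.castSucc)) x)
    (hy : th (rf F) y = y) (hyl : LoU y) (hyp : Pt (sw i' * sw (Fin.rev i')) y)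
    (hcom : x * (y * x * y⁻¹) = (y * x * y⁻¹) * x) :
    x.1 i.succ i.castSucc * x.1 i.succ i.castSucc * y.1 i'.succ i'.castSucc = 0 := by
  have hii : 2 * i'.val + 2 < m := by omega
  obtain ⟨e1, e2, e3⟩ := B_vals hi
  obtain ⟨b, hb⟩ : ∃ b, b = y.1 i'.succ i'.castSucc := ⟨_, rfl⟩
  have hyC : y = yC (rf F) i' b := by rw [hb]; exact C_sym hrf hii hy hyl hyp
  have hxB := B_form hi hxl hxp
  have hsym : x.1 (Fin.rev i.castSucc) i.succ = x.1 i.succ i.castSucc := (B_sym hrf hi hx hxl hxp).1
  obtain ⟨a, ha⟩ : ∃ a, a = x.1 i.succ i.castSucc := ⟨_, rfl⟩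
  obtain ⟨a', ha'⟩ : ∃ a', a' = x.1 (Fin.rev i.castSucc) i.castSucc := ⟨_, rfl⟩
  rw [hsym, ← ha, ← ha'] at hxB
  rw [← ha, ← hb]
  have hrv : (Fin.rev i').val = m - (i'.val + 1) := Fin.val_rev i'
  have f1 : i'.succ = i.castSucc := by
    rw [Fin.ext_iff, Fin.val_succ, Fin.val_castSucc]; omega
  have v0 : i'.castSucc.val = i'.val := rfl
  have v1 : i.castSucc.val = i.val := rfl
  have v2 : i.succ.val = i.val + 1 := rfl
  have v3 : (Fin.rev i.castSucc).val = i.val + 2 := e2
  have w0 : (Fin.rev i').castSucc.val = m - (i'.val + 1) := hrv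
  have w1 : (Fin.rev i').succ.val = m - (i'.val + 1) + 1 := by rw [Fin.val_succ, hrv]
  have xe : ∀ u v, x.1 u v = (if u = v then 1 else 0) +
      (if u = Fin.rev i.castSucc ∧ v = i.castSucc then a' else 0) +
      (if u = Fin.rev i.castSucc ∧ v = i.succ then a else 0) +
      (if u = i.succ ∧ v = i.castSucc then a else 0) := by
    intro u v
    rw [hxB]
    exact yB_apply hi _ _ _ u v
  have ye : ∀ u v, y.1 u v = (if u = v then 1 else 0) +
      (if u = (Fin.rev i').succ ∧ v = (Fin.rev i').castSucc then b else 0)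
        + if u = i'.succ ∧ v = i'.castSucc then b else 0 := by
    intro u v
    rw [hyC]
    exact C_apply hii _ _ u v
  have hA : (y * x * y⁻¹).1 * y.1 = y.1 * x.1 := by
    rw [← SpecialLinearGroup.coe_mul, ← SpecialLinearGroup.coe_mul, inv_mul_cancel_right]
  have hxA : x.1 * (y * x * y⁻¹).1 = (y * x * y⁻¹).1 * x.1 := by
    rw [← SpecialLinearGroup.coe_mul, ← SpecialLinearGroup.coe_mul, hcom]
  have ne : ∀ {u v : Fin (m + 1)}, u.val ≠ v.val → u ≠ v := fun h h1 => h (by rw [h1])
  refine noncomm_key (a' := a') (j0 := i'.castSucc) (j1 := i.castSucc) (j2 := i.succ)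
    (j3 := Fin.rev i.castSucc) (ne (by omega)) (ne (by omega)) (ne (by omega)) (ne (by omega))
    (ne (by omega)) (ne (by omega)) hA hxA ?_ ?_ ?_ ha.symm ?_ ?_ ?_ ?_ ?_
  · intro k
    rw [xe]
    by_cases k3 : k = Fin.rev i.castSucc
    · subst k3
      rw [if_pos rfl, if_neg (fun h => absurd h.2 (ne (by omega))),
        if_neg (fun h => absurd h.2 (ne (by omega))), if_neg (fun h => absurd h.1 (ne (by omega))),
        if_pos rfl]
      ring
    · rw [if_neg (Ne.symm k3), if_neg k3]
      by_cases k2 : k = i.succ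
      · subst k2
        rw [if_neg (fun h => absurd h.2 (ne (by omega))), if_pos ⟨rfl, rfl⟩,
          if_neg (fun h => absurd h.1 (ne (by omega))), if_pos rfl]
        ring
      · rw [if_neg k2, if_neg (fun h : _ ∧ k = i.succ => k2 h.2),
          if_neg (fun h : Fin.rev i.castSucc = i.succ ∧ _ => absurd h.1 (ne (by omega)))]
        by_cases k1 : k = i.castSucc
        · subst k1
          rw [if_pos ⟨rfl, rfl⟩, if_pos rfl]
          ring
        · rw [if_neg k1, if_neg (fun h : _ ∧ k = i.castSucc => k1 h.2)]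
          ring
  · intro k
    rw [xe, if_neg (fun h : _ ∧ i'.castSucc = i.castSucc => absurd h.2 (ne (by omega))),
      if_neg (fun h : _ ∧ i'.castSucc = i.succ => absurd h.2 (ne (by omega))),
      if_neg (fun h : _ ∧ i'.castSucc = i.castSucc => absurd h.2 (ne (by omega)))]
    ring
  · exact hxl.2 _
  · intro k
    rw [ye, if_neg (fun h : _ ∧ i'.castSucc = (Fin.rev i').castSucc => absurd h.2 (ne (by omega)))]
    by_cases k0 : k = i'.castSucc
    · subst k0
      rw [if_pos rfl, if_neg (fun h => absurd h.1 (ne (by rw [f1]; omega))), if_pos rfl]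
      ring
    · rw [if_neg k0, if_neg k0]
      by_cases k1 : k = i.castSucc
      · rw [if_pos (⟨k1.trans f1.symm, rfl⟩ : k = i'.succ ∧ i'.castSucc = i'.castSucc), if_pos k1]
        ring
      · rw [if_neg (fun h : k = i'.succ ∧ _ => k1 (h.1.trans f1)), if_neg k1]
        ring
  · intro k
    rw [ye, if_neg (fun h : _ ∧ i.castSucc = (Fin.rev i').castSucc => absurd h.2 (ne (by omega))),
      if_neg (fun h : _ ∧ i.castSucc = i'.castSucc => absurd h.2 (ne (by omega)))]
    ring
  · intro k
    rw [ye, if_neg (fun h : i.succ = (Fin.rev i').succ ∧ _ => absurd h.1 (ne (by omega))),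
      if_neg (fun h : i.succ = i'.succ ∧ _ => absurd h.1 (ne (by rw [f1]; omega)))]
    by_cases k2 : k = i.succ
    · rw [if_pos k2.symm, if_pos k2]; ring
    · rw [if_neg (Ne.symm k2), if_neg k2]; ring
  · intro k
    rw [ye, if_neg (fun h : i.castSucc = (Fin.rev i').succ ∧ _ => absurd h.1 (ne (by omega)))]
    by_cases k1 : k = i.castSucc
    · subst k1
      rw [if_pos rfl, if_pos rfl, if_neg (fun h : _ ∧ i.castSucc = i'.castSucc =>
        absurd h.2 (ne (by omega)))]
      ring
    · rw [if_neg (Ne.symm k1), if_neg k1]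
      by_cases k0 : k = i'.castSucc
      · rw [if_pos (⟨f1.symm, k0⟩ : i.castSucc = i'.succ ∧ k = i'.castSucc), if_pos k0]
        ring
      · rw [if_neg (fun h : _ ∧ k = i'.castSucc => k0 h.2), if_neg k0]
        ring
  · exact hxl.1 _ _ (by rw [Fin.lt_def]; omega)

end

end Vale.Agent.P240.R2.H651.R1
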