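import Vale.Agent.P240.R2.H997.OmFew
import Vale.Agent.P240.R2.H651.R1.B

/-!
Automorphisms of `Ω_n(F)`, `n` odd, `F` a prime field, that stabilize `B`, an opposite chamber and
the minimal parabolic subgroups are induced by diagonal elements of `SO_n(F)`.
-/

set_option autoImplicit false
set_option linter.all false

namespace Vale.Agent.P240.R2.H651.R1

open Subgroup Matrix Vale.Agent.P240.H195 Vale.Agent.P240.R2.H487.CG Vale.Agent.P240.K
  Vale.Agent.P240.R2.H775.RG Vale.Agent.P240.R2.H195.Om Vale.Agent.P240.R2.H997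

universe u

section
variable {F : Type u} [Field F] [Finite F] {m : ℕ}

/-- additive maps of a prime field -/
lemma prime_linear {r : ℕ} [hr : Fact r.Prime] [CharP F r] (hF : Nat.card F = r) {φ : F → F}
    (hφ : ∀ a b, φ (a + b) = φ a + φ b) (c : F) : φ c = φ 1 * c := by
  have : Fintype F := Fintype.ofFinite F
  have hb := ZMod.castHom_bijective F (n := r) (by rw [← Nat.card_eq_fintype_card, hF])
  obtain ⟨z, rfl⟩ := hb.2 c
  have h1 : ∀ n : ℕ, φ (n : F) = φ 1 * n := by
    intro n
    induction n with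
    | zero =>
      have h0 := hφ 0 0
      rw [add_zero] at h0
      simp only [Nat.cast_zero, mul_zero]
      linear_combination -h0
    | succ n ih => rw [Nat.cast_succ, hφ, ih]; ring
  have h2 : (ZMod.castHom (dvd_refl r) F z) = (z.val : F) := by
    rw [ZMod.castHom_apply, ZMod.cast_eq_val]
  rw [h2]
  exact h1 _

/-- the diagonal elements of `SO_n(F)`, `n` odd, have arbitrary values on the simple roots -/
lemma exists_diag (hev : m % 2 = 0) (a : ℕ → F) (ha : ∀ k, a k ≠ 0) :
    ∃ t : ↥(GJ (m + 1) (rf F)), Mon t.1 1 ∧ ∀ k : Fin m, 2 * k.val + 1 ≤ m →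
      t.1.1 k.succ k.succ * (t.1.1 k.castSucc k.castSucc)⁻¹ = a k.val := by
  classical
  obtain ⟨l, rfl⟩ : ∃ l, m = 2 * l := ⟨m / 2, by omega⟩
  obtain ⟨P, hP⟩ : ∃ P : ℕ → F, ∀ i, P i = ∏ j ∈ Finset.Ico i l, (a j)⁻¹ := ⟨_, fun i => rfl⟩
  have hP0 : ∀ i, P i ≠ 0 := by
    intro i
    rw [hP]
    exact Finset.prod_ne_zero_iff.2 fun j _ => inv_ne_zero (ha j)
  have hPl : P l = 1 := by rw [hP, Finset.Ico_self, Finset.prod_empty]
  have hPs : ∀ i, i < l → P i = (a i)⁻¹ * P (i + 1) := by
    intro i hi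
    rw [hP, hP, Finset.prod_eq_prod_Ico_succ_bot hi]
  obtain ⟨d, hd⟩ : ∃ d : Fin (2 * l + 1) → F, ∀ x, d x =
      if x.val ≤ l then P x.val else (P (2 * l - x.val))⁻¹ := ⟨_, fun x => rfl⟩
  have hdr : ∀ x, d x * d (Fin.rev x) = 1 := by
    intro x
    have hv : (Fin.rev x).val + x.val = 2 * l := rev_val x
    have hx := x.2
    rw [hd, hd]
    by_cases h1 : x.val ≤ l
    · rw [if_pos h1]
      by_cases h2 : (Fin.rev x).val ≤ l
      · rw [if_pos h2]
        have e1 : x.val = l := by omega
        have e2 : (Fin.rev x).val = l := by omega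
        rw [e1, e2, hPl, one_mul]
      · rw [if_neg h2]
        have e1 : 2 * l - (Fin.rev x).val = x.val := by omega
        rw [e1]
        exact mul_inv_cancel₀ (hP0 _)
    · have h2 : (Fin.rev x).val ≤ l := by omega
      rw [if_neg h1, if_pos h2]
      have e1 : 2 * l - x.val = (Fin.rev x).val := by omega
      rw [e1]
      exact inv_mul_cancel₀ (hP0 _)
  have hdet : (Matrix.diagonal d).det = 1 := by
    rw [Matrix.det_diagonal]
    refine Finset.prod_involution (fun x _ => Fin.rev x) (fun x _ => hdr x) (fun x _ hx he => hx ?_)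
      (fun x _ => Finset.mem_univ _) (fun x _ => Fin.rev_rev x)
    have hv : (Fin.rev x).val + x.val = 2 * l := rev_val x
    have e1 : (Fin.rev x).val = x.val := congrArg Fin.val he
    have e2 : x.val = l := by omega
    rw [hd, if_pos e2.le, e2, hPl]
  have hmem : (⟨Matrix.diagonal d, hdet⟩ : SLm (2 * l) F) ∈ GJ (2 * l + 1) (rf F) := by
    change ((Matrix.diagonal d).map (rf F))ᵀ * JJ (2 * l + 1) F * Matrix.diagonal d =
      JJ (2 * l + 1) F
    have e1 : (Matrix.diagonal d).map (rf F) = Matrix.diagonal d := by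
      ext i j
      rfl
    rw [e1, Matrix.diagonal_transpose]
    ext i j
    rw [Matrix.mul_diagonal, Matrix.diagonal_mul]
    simp only [JJ, Matrix.of_apply]
    split_ifs with h
    · subst h
      have := hdr i
      linear_combination (-1) ^ i.val * this
    · ring
  refine ⟨⟨⟨Matrix.diagonal d, hdet⟩, hmem⟩, ?_, ?_⟩
  · intro i j hij
    change Matrix.diagonal d i j ≠ 0 at hij
    by_contra hne
    exact hij (Matrix.diagonal_apply_ne _ hne)
  · intro k hk
    change Matrix.diagonal d k.succ k.succ * (Matrix.diagonal d k.castSucc k.castSucc)⁻¹ = _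
    rw [Matrix.diagonal_apply_eq, Matrix.diagonal_apply_eq, hd, hd]
    have e1 : k.succ.val = k.val + 1 := rfl
    have e2 : k.castSucc.val = k.val := rfl
    rw [e1, e2, if_pos (by omega), if_pos (by omega), hPs k.val (by omega), mul_inv, inv_inv]
    have := hP0 (k.val + 1)
    field_simp

/-- coordinates on the root groups of the simple roots -/
lemma root_coord (hev : m % 2 = 0) (h2 : (2 : F) ≠ 0) {k : Fin m} (hk : 2 * k.val + 1 ≤ m) :
    (∀ c : F, ∃ A : ↥(GJ (m + 1) (rf F)), LoU A.1 ∧ Pt (ty k) A.1 ∧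
      A.1.1 k.succ k.castSucc = c) ∧
    (∀ A A' : ↥(GJ (m + 1) (rf F)), LoU A.1 → Pt (ty k) A.1 → LoU A'.1 → Pt (ty k) A'.1 →
      A.1.1 k.succ k.castSucc = A'.1.1 k.succ k.castSucc → A = A') := by
  unfold ty
  split_ifs with hi
  · constructor
    · intro c
      exact ⟨mkG (th_yC hrf hi c), yC_lou c, yC_pt hi c, yC_apply hi c⟩
    · intro A A' h5 h6 h7 h8 h9
      apply Subtype.ext
      rw [C_sym hrf hi (fixed A) h5 h6, C_sym hrf hi (fixed A') h7 h8, h9]
  · have hi' : 2 * k.val + 2 = m := by omega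
    constructor
    · intro c
      have hth : th (rf F) (yB hi' c c (c * c / 2)) = yB hi' c c (c * c / 2) := by
        rw [th_yB hrf]
        have e : -(c * c / 2) + c * c = c * c / 2 := by
          field_simp
          ring
        exact congrArg (yB hi' c c) e
      exact ⟨mkG hth, yB_lou hi' _ _ _, yB_pt hi' _ _ _, yB_10 hi' _ _ _⟩
    · intro A A' h5 h6 h7 h8 h9
      exact B_uniq hi' h2 h5 h6 h7 h8 h9

end

end Vale.Agent.P240.R2.H651.R1
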