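import Vale.Agent.P240.R2.H651.R1.C

/-!
Automorphisms of `Ω_n(F)`, `n` odd, `F` a prime field, that stabilize `B`, an opposite chamber and
the minimal parabolic subgroups are induced by diagonal elements of `SO_n(F)`.
-/

set_option autoImplicit false
set_option linter.all false

namespace Vale.Agent.P240.R2.H651.R1

open Subgroup Matrix Vale.Agent.P240.H195 Vale.Agent.P240.R2.H487.CG Vale.Agent.P240.K
  Vale.Agent.P240.R2.H775.RG Vale.Agent.P240.R2.H195.Om Vale.Agent.P240.R2.H997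

universe u

section
variable {F : Type u} [Field F] [Finite F] {m : ℕ}

/-- **the stabilizer of the frame consists of diagonal automorphisms** -/
theorem omega_diag {r : ℕ} [hr : Fact r.Prime] [CharP F r] (hF : Nat.card F = r) (hm : 0 < m)
    (hev : m % 2 = 0) (h2 : (2 : F) ≠ 0)
    (hs : IsSimpleGroup ↥(commutator ↥(GJ (m + 1) (rf F))))
    {n : ↥(commutator ↥(GJ (m + 1) (rf F)))} (hn : Mon n.1.1 Fin.revPerm)
    {e : MulAut ↥(commutator ↥(GJ (m + 1) (rf F)))}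
    (he : am e ((BG (rf F)).subgroupOf _) = (BG (rf F)).subgroupOf _)
    (heC : am e (cj n ((BG (rf F)).subgroupOf _)) = cj n ((BG (rf F)).subgroupOf _))
    (hP : ∀ s ∈ subS (BG (rf F)) (NG (rf F)) (SG (rf F)) (commutator ↥(GJ (m + 1) (rf F))),
      am e (Par ((BG (rf F)).subgroupOf _) s) = Par ((BG (rf F)).subgroupOf _) s) :
    ∃ t : ↥(GJ (m + 1) (rf F)), ∀ x : ↥(commutator ↥(GJ (m + 1) (rf F))),
      ((e x : ↥(commutator ↥(GJ (m + 1) (rf F)))) : ↥(GJ (m + 1) (rf F))) = t * x * t⁻¹ := by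
  have h := (omega_rigid (p := r) hm hev h2 hs).toSB
  have hG := cg_SB (F := F) (σ := rf F) (p := r) hm hrf (Or.inr (Or.inr h2))
  have hU := UG_le_comm (F := F) (p := r) hm hev h2
  have hHn : (commutator ↥(GJ (m + 1) (rf F))).Normal := inferInstance
  generalize commutator ↥(GJ (m + 1) (rf F)) = H at h hU hHn hs n e
  -- representatives of the simple reflections
  have hrep : ∀ {w : Equiv.Perm (Fin (m + 1))}, Cr w → ∃ n : ↥(GJ (m + 1) (rf F)),
      ∃ t : ↥(GJ (m + 1) (rf F)), Mon n.1 w ∧ t ∈ BG (rf F) ∧ t ∈ NG (rf F) ∧ n * t ∈ H := by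
    intro w hw
    obtain ⟨n, hn⟩ := exists_NG (F := F) (σ := rf F) hw
    obtain ⟨t, ht1, ht2, ht3⟩ := sub_rep hG hU (n := n) ⟨_, hn⟩
    exact ⟨n, t, hn, ht1, ht2, ht3⟩
  have hmonT : ∀ {n t : ↥(GJ (m + 1) (rf F))} {w : Equiv.Perm (Fin (m + 1))}, Mon n.1 w →
      t ∈ BG (rf F) → t ∈ NG (rf F) → Mon (n * t).1 w := by
    intro n t w hn ht1 ht2
    have htM : Mon t.1 1 := mem_T.1 (mem_inf.2 ⟨ht1, ht2⟩)
    have := mon_mul hn htM
    rwa [mul_one] at this
  have hex : ∀ k : Fin m, 2 * k.val + 1 ≤ m →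
      ∃ s : ↥H, s ∈ subS (BG (rf F)) (NG (rf F)) (SG (rf F)) H ∧ Mon s.1.1 (ty k) := by
    intro k hk
    have htyp : Typ (ty k) := typ_iff.2 ⟨_, hk, rfl⟩
    obtain ⟨n, t, hn, ht1, ht2, ht3⟩ := hrep htyp.cr
    refine ⟨⟨n * t, ht3⟩, ⟨mul_mem ⟨_, hn⟩ ht2, n, ⟨_, htyp, hn⟩, ?_⟩, hmonT hn ht1 ht2⟩
    change n⁻¹ * (n * t) ∈ BG (rf F)
    rwa [inv_mul_cancel_left]
  have hmonS : ∀ t ∈ subS (BG (rf F)) (NG (rf F)) (SG (rf F)) H, ∃ k : Fin m,
      2 * k.val + 1 ≤ m ∧ Mon t.1.1 (ty k) := by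
    rintro t ⟨htN, a, ⟨τ, hτ, ha⟩, hat⟩
    have htM : Mon t.1.1 τ := by
      obtain ⟨w, hw⟩ := mem_NG.1 htN
      have h3 : Mon (a.1⁻¹ * t.1.1) (τ⁻¹ * w) := mon_mul (mon_inv ha) hw
      have h4 : τ⁻¹ * w = 1 := mon_up h3 hat
      rwa [← inv_mul_eq_one.1 h4] at hw
    obtain ⟨k, hk, rfl⟩ := typ_iff.1 hτ
    exact ⟨k, hk, htM⟩
  have hnN : n ∈ (NG (rf F)).subgroupOf H := ⟨_, hn⟩
  have hopp : ∀ x ∈ (UG (rf F)).subgroupOf H, n * x * n⁻¹ ∈ (UG (rf F)).subgroupOf H → x = 1 := by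
    intro x hx hnx
    set z : ↥(GJ (m + 1) (rf F)) := n.1 * x.1 * n.1⁻¹ with hz
    have hzU : z.1 ∈ UU m F := hnx
    have h3 : LoU z.1 := by
      rw [lou_iff hn]
      have : n.1.1⁻¹ * z.1 * n.1.1 = x.1.1 := by
        rw [hz]
        change n.1.1⁻¹ * (n.1.1 * x.1.1 * n.1.1⁻¹) * n.1.1 = x.1.1
        group
      rw [this]
      exact hx
    have h4 : z.1 = 1 := by
      refine sl_ext fun i j => ?_
      rw [sl_one]
      rcases lt_trichotomy i j with h | h | h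
      · rw [if_neg h.ne, h3.1 i j h]
      · rw [if_pos h, h, h3.2]
      · rw [if_neg h.ne', hzU.1 i j h]
    have h5 : z = 1 := Subtype.ext h4
    have h6 : x.1 = n.1⁻¹ * z * n.1 := by rw [hz]; group
    rw [h5] at h6
    exact Subtype.ext (by rw [h6]; simp)
  -- the root groups
  have hmemX : ∀ k : Fin m, 2 * k.val + 1 ≤ m → ∃ Q : Subgroup ↥H,
      (∀ y : ↥H, y ∈ Q ↔ LoU y.1.1 ∧ Pt (ty k) y.1.1) ∧ am e Q = Q := by
    intro k hk
    obtain ⟨s, hsS, hsM⟩ := hex k hk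
    refine ⟨cj n ((UG (rf F)).subgroupOf H) ⊓ Par ((BG (rf F)).subgroupOf H) s, fun y => ?_, ?_⟩
    · rw [← mem_Y_iff h hn (typ_iff.2 ⟨_, hk, rfl⟩) hsM hsS, mem_inf, mem_cj]
      exact and_comm
    · rw [am_inf, am_cj_U h hr.out heC, hP s hsS]
  choose Q hQ hQe using hmemX
  have hXe : ∀ k (hk : 2 * k.val + 1 ≤ m) (y : ↥H), LoU y.1.1 → Pt (ty k) y.1.1 →
      LoU (e y).1.1 ∧ Pt (ty k) (e y).1.1 := by
    intro k hk y h1 h3
    rw [← hQ k hk]
    have h4 : e y ∈ am e (Q k hk) := apply_mem_am ((hQ k hk y).2 ⟨h1, h3⟩)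
    rwa [hQe k hk] at h4
  have hXmul : ∀ k (hk : 2 * k.val + 1 ≤ m) (y z : ↥H), LoU y.1.1 → Pt (ty k) y.1.1 →
      LoU z.1.1 → Pt (ty k) z.1.1 → LoU (y * z).1.1 ∧ Pt (ty k) (y * z).1.1 := by
    intro k hk y z h1 h3 h4 h5
    rw [← hQ k hk]
    exact mul_mem ((hQ k hk y).2 ⟨h1, h3⟩) ((hQ k hk z).2 ⟨h4, h5⟩)
  -- the scalars
  have hsc : ∀ k : Fin m, 2 * k.val + 1 ≤ m → ∃ a : F, a ≠ 0 ∧ ∀ y : ↥H, LoU y.1.1 →
      Pt (ty k) y.1.1 → (e y).1.1.1 k.succ k.castSucc = a * y.1.1.1 k.succ k.castSucc := by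
    intro k hk
    obtain ⟨hc1, hc2⟩ := root_coord (F := F) hev h2 hk
    choose X hX1 hX2 hX3 using hc1
    obtain ⟨xx, hxx⟩ : ∃ xx : F → ↥H, ∀ c, (xx c).1 = X c :=
      ⟨fun c => ⟨X c, lou_mem hHn hU (hX1 c)⟩, fun c => rfl⟩
    have x1 : ∀ c, LoU (xx c).1.1 := fun c => by rw [hxx]; exact hX1 c
    have x2 : ∀ c, Pt (ty k) (xx c).1.1 := fun c => by rw [hxx]; exact hX2 c
    have x3 : ∀ c, (xx c).1.1.1 k.succ k.castSucc = c := fun c => by rw [hxx]; exact hX3 c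
    have huniq : ∀ y : ↥H, LoU y.1.1 → Pt (ty k) y.1.1 → y = xx (y.1.1.1 k.succ k.castSucc) := by
      intro y h3 h4
      exact Subtype.ext (hc2 _ _ h3 h4 (x1 _) (x2 _) (x3 _).symm)
    have hadd : ∀ a b, xx (a + b) = xx a * xx b := by
      intro a b
      obtain ⟨h3, h4⟩ := hXmul k hk _ _ (x1 a) (x2 a) (x1 b) (x2 b)
      have h5 := huniq _ h3 h4
      have h6 : (xx a * xx b).1.1.1 k.succ k.castSucc = a + b := by
        have h7 := lou_add (x1 a) (x1 b) k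
        rw [x3, x3] at h7
        exact h7
      rw [h6] at h5
      exact h5.symm
    obtain ⟨φ, hφ⟩ : ∃ φ : F → F, ∀ c, φ c = (e (xx c)).1.1.1 k.succ k.castSucc :=
      ⟨_, fun c => rfl⟩
    have hex' : ∀ c, e (xx c) = xx (φ c) := by
      intro c
      obtain ⟨h3, h4⟩ := hXe k hk _ (x1 c) (x2 c)
      rw [hφ]
      exact huniq _ h3 h4
    have hxinj : Function.Injective xx := by
      intro a b hab
      rw [← x3 a, ← x3 b, hab]
    have hφadd : ∀ a b, φ (a + b) = φ a + φ b := by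
      intro a b
      apply hxinj
      rw [← hex', hadd, map_mul, hex', hex', hadd]
    have hlin := prime_linear hF hφadd
    refine ⟨φ 1, ?_, ?_⟩
    · intro h0
      have h3 : e (xx 1) = e (xx 0) := by
        rw [hex', hex', h0, hlin 0, mul_zero]
      exact one_ne_zero (hxinj (e.injective h3))
    · intro y h3 h4
      rw [← hlin, ← x3 (φ _), ← hex', ← huniq y h3 h4]
  choose a ha0 ha using hsc
  obtain ⟨t, htM, ht⟩ := exists_diag (F := F) hev
    (fun k => if hk : k < m ∧ 2 * k + 1 ≤ m then a ⟨k, hk.1⟩ hk.2 else 1) (by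
      intro k
      show dite _ _ _ ≠ 0
      split_ifs with hk
      · exact ha0 _ _
      · exact one_ne_zero)
  have ht' : ∀ (k : Fin m) (hk : 2 * k.val + 1 ≤ m),
      t.1.1 k.succ k.succ * (t.1.1 k.castSucc k.castSucc)⁻¹ = a k hk := by
    intro k hk
    rw [ht k hk]
    show dite _ _ _ = _
    rw [dif_pos ⟨k.2, hk⟩]
  have htB : t ∈ BG (rf F) := mem_T' htM
  -- the automorphism of conjugation by `t`
  obtain ⟨c, hcdef⟩ : ∃ c : MulAut ↥H, ∀ x : ↥H, (c x).1 = t * x.1 * t⁻¹ :=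
    ⟨MulAut.conjNormal t, fun x => MulAut.conjNormal_apply t x⟩
  have hcB : am c ((BG (rf F)).subgroupOf H) = (BG (rf F)).subgroupOf H := by
    refine am_eq_of_le ?_
    rintro _ ⟨x, hx, rfl⟩
    change (c x).1 ∈ BG (rf F)
    rw [hcdef]
    exact mul_mem (mul_mem htB hx) (inv_mem htB)
  have hcC : am c (cj n ((BG (rf F)).subgroupOf H)) = cj n ((BG (rf F)).subgroupOf H) := by
    refine am_eq_of_le ?_
    rintro _ ⟨x, hx, rfl⟩
    rw [mem_cj]
    have hx' : n.1⁻¹ * x.1 * n.1 ∈ BG (rf F) := by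
      have := hx
      rw [SetLike.mem_coe, mem_cj] at this
      exact this
    have htn : n.1⁻¹ * t * n.1 ∈ BG (rf F) := by
      have h3 : Mon (n.1⁻¹ * t * n.1).1 (Fin.revPerm⁻¹ * 1 * Fin.revPerm) :=
        mon_mul (mon_mul (mon_inv hn) htM) hn
      rw [mul_one, inv_mul_cancel] at h3
      exact mem_T' h3
    change n.1⁻¹ * (c x).1 * n.1 ∈ BG (rf F)
    rw [hcdef]
    have : n.1⁻¹ * (t * x.1 * t⁻¹) * n.1 =
        (n.1⁻¹ * t * n.1) * (n.1⁻¹ * x.1 * n.1) * (n.1⁻¹ * t * n.1)⁻¹ := by group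
    rw [this]
    exact mul_mem (mul_mem htn hx') (inv_mem htn)
  have hcP : ∀ s ∈ subS (BG (rf F)) (NG (rf F)) (SG (rf F)) H,
      am c (Par ((BG (rf F)).subgroupOf H) s) = Par ((BG (rf F)).subgroupOf H) s := by
    intro s hsS
    obtain ⟨k, hk, hsM⟩ := hmonS s hsS
    refine am_eq_of_le ?_
    have h3 : Par ((BG (rf F)).subgroupOf H) s ≤
        (Par ((BG (rf F)).subgroupOf H) s).comap c.toMonoidHom := by
      refine SB.par_le ?_ ?_
      · intro x hx
        refine le_Par ?_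
        change (c x).1 ∈ BG (rf F)
        rw [hcdef]
        exact mul_mem (mul_mem htB hx) (inv_mem htB)
      · have h4 : s⁻¹ * c s ∈ (BG (rf F)).subgroupOf H := by
          change s.1⁻¹ * (c s).1 ∈ BG (rf F)
          rw [hcdef]
          have h5 : Mon (s.1⁻¹ * (t * s.1 * t⁻¹)).1 ((ty k)⁻¹ * (1 * ty k * 1⁻¹)) :=
            mon_mul (mon_inv hsM) (mon_mul (mon_mul htM hsM) (mon_inv htM))
          rw [one_mul, inv_one, mul_one, inv_mul_cancel] at h5
          exact mem_T' h5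
        change c s ∈ Par ((BG (rf F)).subgroupOf H) s
        have h6 : c s = s * (s⁻¹ * c s) := by group
        rw [h6]
        exact mul_mem self_mem_Par (le_Par h4)
    rw [am, map_le_iff_le_comap]
    exact h3
  -- conclusion
  have hone : c⁻¹ * e = 1 := by
    refine h.eq_one_of_roots hs hr.out ?_ ?_ hnN hopp ?_ ?_
    · rw [am_mul, he]
      exact am_inv_eq hcB
    · intro s hsS
      rw [am_mul, hP s hsS]
      exact am_inv_eq (hcP s hsS)
    · rw [am_mul, heC]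
      exact am_inv_eq hcC
    · intro s hsS y hyP hyU
      obtain ⟨k, hk, hsM⟩ := hmonS s hsS
      obtain ⟨hlo, hpt⟩ := (mem_Y_iff h hn (typ_iff.2 ⟨_, hk, rfl⟩) hsM hsS).1 ⟨hyP, hyU⟩
      have hce : e y = c y := by
        obtain ⟨h3, h4⟩ := hXe k hk y hlo hpt
        have hentry : ∀ i j, (c y).1.1.1 i j = t.1.1 i i * y.1.1.1 i j * (t.1.1 j j)⁻¹ := by
          intro i j
          rw [hcdef]
          exact diag_conj_apply htM y.1.1 i j
        have hlo' : LoU (c y).1.1 := by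
          refine ⟨fun i j hij => ?_, fun i => ?_⟩
          · rw [hentry, hlo.1 i j hij]
            ring
          · rw [hentry, hlo.2 i, mul_one]
            exact mul_inv_cancel₀ (mon_ne htM i)
        have hpt' : Pt (ty k) (c y).1.1 := by
          intro i j hij hne
          refine hpt i j hij fun h0 => hne ?_
          rw [hentry, h0]
          ring
        obtain ⟨-, hc2⟩ := root_coord (F := F) hev h2 hk
        refine Subtype.ext (hc2 _ _ h3 h4 hlo' hpt' ?_)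
        rw [ha k hk y hlo hpt, hentry, ← ht' k hk]
        ring
      rw [MulAut.mul_apply, hce, ← MulAut.mul_apply, inv_mul_cancel, MulAut.one_apply]
  refine ⟨t, fun x => ?_⟩
  have h3 : e = c := (inv_mul_eq_one.1 hone).symm
  rw [h3, hcdef]

end

end Vale.Agent.P240.R2.H651.R1
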