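import Vale.Agent.P240.R2.H997.OmPar
import Vale.Agent.P240.R2.H651.R1.A
import Vale.Agent.P240.R2.H651.R1.D

/-!
All automorphisms of `Ω_n(F)`, `n ≥ 5` odd, `F` a prime field of odd characteristic, are induced by
`SO_n(F)`.
-/

set_option autoImplicit false
set_option linter.all false

namespace Vale.Agent.P240.R2.H651.R1

open Subgroup Matrix Vale.Agent.P240.H195 Vale.Agent.P240.R2.H487.CG Vale.Agent.P240.K
  Vale.Agent.P240.R2.H775.RG Vale.Agent.P240.R2.H195.Om Vale.Agent.P240.R2.H997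

universe u

section
variable {F : Type u} [Field F] [Finite F] {m : ℕ}

/-- **automorphisms of `Ω_n(F)`**, `n` odd, `F` a prime field -/
theorem omega_aut {r : ℕ} [hr : Fact r.Prime] [CharP F r] (hF : Nat.card F = r) (hm : 4 ≤ m)
    (hev : m % 2 = 0) (h2 : (2 : F) ≠ 0)
    (hs : IsSimpleGroup ↥(commutator ↥(GJ (m + 1) (rf F))))
    (f : MulAut ↥(commutator ↥(GJ (m + 1) (rf F)))) :
    ∃ t : ↥(GJ (m + 1) (rf F)), ∀ x : ↥(commutator ↥(GJ (m + 1) (rf F))),
      ((f x : ↥(commutator ↥(GJ (m + 1) (rf F)))) : ↥(GJ (m + 1) (rf F))) = t * x * t⁻¹ := by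
  have hm0 : 0 < m := by omega
  have h := (omega_rigid (p := r) hm0 hev h2 hs).toSB
  have hG := cg_SB (F := F) (σ := rf F) (p := r) hm0 hrf (Or.inr (Or.inr h2))
  have hU := UG_le_comm (F := F) (p := r) hm0 hev h2
  have hHn : (commutator ↥(GJ (m + 1) (rf F))).Normal := inferInstance
  -- a longest element
  obtain ⟨n₀, hn₀⟩ := exists_NG (F := F) (m := m) (σ := rf F) (w := Fin.revPerm) (cr_of fun x => by
    rw [Fin.revPerm_apply, Fin.revPerm_apply])
  obtain ⟨t, ht1, ht2, ht3⟩ := sub_rep hG hU (n := n₀) ⟨_, hn₀⟩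
  obtain ⟨n, hnd⟩ : ∃ n : ↥(commutator ↥(GJ (m + 1) (rf F))), n = ⟨n₀ * t, ht3⟩ := ⟨_, rfl⟩
  have hn : Mon n.1.1 Fin.revPerm := by
    have htM : Mon t.1 1 := mem_T.1 (mem_inf.2 ⟨ht1, ht2⟩)
    have := mon_mul hn₀ htM
    rw [mul_one] at this
    rw [hnd]
    exact this
  have hnN : n ∈ (NG (rf F)).subgroupOf (commutator ↥(GJ (m + 1) (rf F))) := ⟨_, hn⟩
  have hopp : ∀ x ∈ (UG (rf F)).subgroupOf (commutator ↥(GJ (m + 1) (rf F))),
      n * x * n⁻¹ ∈ (UG (rf F)).subgroupOf (commutator ↥(GJ (m + 1) (rf F))) → x = 1 := by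
    intro x hx hnx
    set z : ↥(GJ (m + 1) (rf F)) := n.1 * x.1 * n.1⁻¹ with hz
    have hzU : z.1 ∈ UU m F := hnx
    have h3 : LoU z.1 := by
      rw [lou_iff hn]
      have : n.1.1⁻¹ * z.1 * n.1.1 = x.1.1 := by
        rw [hz]
        change n.1.1⁻¹ * (n.1.1 * x.1.1 * n.1.1⁻¹) * n.1.1 = x.1.1
        group
      rw [this]
      exact hx
    have h4 : z.1 = 1 := by
      refine sl_ext fun i j => ?_
      rw [sl_one]
      rcases lt_trichotomy i j with h | h | h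
      · rw [if_neg h.ne, h3.1 i j h]
      · rw [if_pos h, h, h3.2]
      · rw [if_neg h.ne', hzU.1 i j h]
    have h5 : z = 1 := Subtype.ext h4
    have h6 : x.1 = n.1⁻¹ * z * n.1 := by rw [hz]; group
    rw [h5] at h6
    exact Subtype.ext (by rw [h6]; simp)
  obtain ⟨g, hgB, hgC⟩ := exists_norm h hr.out hnN hopp f
  have hP := omega_par_fix (r := r) hm hev h2 hHn hU hn hgB hgC
  obtain ⟨y, hy⟩ := omega_diag (r := r) hF hm0 hev h2 hs hn hgB hgC hP
  refine ⟨g.1 * y, fun x => ?_⟩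
  have h3 : f x = MulAut.conj g (((MulAut.conj g)⁻¹ * f) x) := by
    rw [← MulAut.mul_apply, mul_inv_cancel_left]
  rw [h3, MulAut.conj_apply]
  change g.1 * _ * g.1⁻¹ = _
  rw [hy x]
  group

end

/-- the condition `FewAut 2` from the automorphisms of a normal subgroup of index two -/
theorem fewAut_two_of_conj {G : Type u} [Group G] {H : Subgroup G}
    (hf : ∀ f : MulAut ↥H, ∃ y : G, ∀ x : ↥H, ((f x : ↥H) : G) = y * x * y⁻¹)
    (hidx : ∀ y z : G, y ∉ H → z ∉ H → y⁻¹ * z ∈ H) : FewAut 2 ↥H := by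
  have key : ∀ f g : MulAut ↥H, OutAut 2 f → OutAut 2 g →
      g ∈ zpowers f ⊔ (MulAut.conj (G := ↥H)).range := by
    intro f g hfo hgo
    obtain ⟨y, hy⟩ := hf f
    obtain ⟨z, hz⟩ := hf g
    have hyH : y ∉ H := by
      intro h1
      refine hfo.2 ⟨⟨y, h1⟩, ?_⟩
      ext x
      rw [hy x, MulAut.conj_apply]
      rfl
    have hzH : z ∉ H := by
      intro h1
      refine hgo.2 ⟨⟨z, h1⟩, ?_⟩
      ext x
      rw [hz x, MulAut.conj_apply]
      rfl
    have h1 : g = f * MulAut.conj (⟨y⁻¹ * z, hidx y z hyH hzH⟩ : ↥H) := by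
      ext x
      rw [hz x, MulAut.mul_apply, hy, MulAut.conj_apply]
      change z * x * z⁻¹ = y * ((y⁻¹ * z) * x * (y⁻¹ * z)⁻¹) * y⁻¹
      group
    rw [h1]
    exact mul_mem (mem_sup_left (mem_zpowers f)) (mem_sup_right ⟨_, rfl⟩)
  exact ⟨fun f g _ hf hg _ => Or.inl (key f g hf hg), Or.inl key⟩

end Vale.Agent.P240.R2.H651.R1
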