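import Vale.Agent.P240.R2.H651.R1.E
import Vale.Agent.P240.R2.H329.OA6
import Vale.Agent.P240.R2.H613.I5

/-!
`FewAut 2` for `Ω_n(F)`, `n ≥ 5` odd, `F` a prime field of odd characteristic.
-/

set_option autoImplicit false
set_option linter.all false

namespace Vale.Agent.P240.R2.H651.R1

open Subgroup Matrix Vale.Agent.P240.H195 Vale.Agent.P240.R2.H487.CG Vale.Agent.P240.K
  Vale.Agent.P240.R2.H775.RG Vale.Agent.P240.R2.H195.Om Vale.Agent.P240.R2.H997

universe u v

section
variable {F : Type u} [Field F] [Finite F] {m : ℕ}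

/-- the commutator subgroup of `SO_n(F)`, `n` odd, has index at most two -/
lemma comm_index (hev : m % 2 = 0) (h2 : (2 : F) ≠ 0) (hq : Odd (Nat.card F))
    {y z : ↥(GJ (m + 1) (rf F))} (hy : y ∉ commutator ↥(GJ (m + 1) (rf F)))
    (hz : z ∉ commutator ↥(GJ (m + 1) (rf F))) : y⁻¹ * z ∈ commutator ↥(GJ (m + 1) (rf F)) := by
  letI : Fintype F := Fintype.ofFinite F
  letI : StarRing F := starRingOfComm
  obtain ⟨e⟩ := Vale.Agent.P240.R2.H613.I5.pgu_equiv (K := F) (n := m + 1) (fun x => rfl) h2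
    (Nat.odd_iff.2 (by omega))
  obtain ⟨t, -, ht⟩ := Vale.Agent.P240.R2.H329.ab_two (K := F) (n := m + 1) (fun x => rfl) hq
    (Nat.odd_iff.2 (by omega))
  have hcm : ∀ x, x ∈ commutator (Vale.Agent.P240.R2.AS.PGU F (m + 1)) →
      e x ∈ commutator ↥(GJ (m + 1) (rf F)) := by
    intro x hx
    have h3 : e x ∈ (commutator (Vale.Agent.P240.R2.AS.PGU F (m + 1))).map e.toMonoidHom :=
      ⟨_, hx, rfl⟩
    have h4 : (commutator (Vale.Agent.P240.R2.AS.PGU F (m + 1))).map e.toMonoidHom ≤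
        commutator ↥(GJ (m + 1) (rf F)) := by
      rw [commutator_def, commutator_def, Subgroup.map_commutator]
      exact Subgroup.commutator_mono le_top le_top
    exact h4 h3
  have hof : ∀ x : Vale.Agent.P240.R2.AS.PGU F (m + 1), Abelianization.of x = 1 ↔
      x ∈ commutator (Vale.Agent.P240.R2.AS.PGU F (m + 1)) := by
    intro x
    rw [← MonoidHom.mem_ker, Abelianization.ker_of]
  have key : ∀ w : ↥(GJ (m + 1) (rf F)), w ∉ commutator ↥(GJ (m + 1) (rf F)) →
      Abelianization.of (e.symm w) = t := by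
    intro w hw
    obtain ⟨g, hg⟩ := QuotientGroup.mk_surjective (e.symm w)
    have h3 : Abelianization.of (e.symm w) = Vale.Agent.P240.R2.H296.O.ab F (m + 1) g := by
      rw [← hg]
      rfl
    rcases ht g with h4 | h4
    · exfalso
      apply hw
      have h5 := hcm _ ((hof _).1 (h3.trans h4))
      rwa [MulEquiv.apply_symm_apply] at h5
    · rw [h3, h4]
  have h3 : Abelianization.of (e.symm (y⁻¹ * z)) = 1 := by
    rw [map_mul, map_mul, map_inv, map_inv, key y hy, key z hz, inv_mul_cancel]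
  have h4 := hcm _ ((hof _).1 h3)
  rwa [MulEquiv.apply_symm_apply] at h4

/-- **`FewAut 2` for `Ω_n(F)`**, `n ≥ 5` odd, `F` a prime field of odd characteristic -/
theorem fewAut_omega_two (hF : (Nat.card F).Prime) (hm : 4 ≤ m) (hev : m % 2 = 0)
    (h2 : (2 : F) ≠ 0) (hs : IsSimpleGroup ↥(commutator ↥(GJ (m + 1) (rf F)))) :
    FewAut 2 ↥(commutator ↥(GJ (m + 1) (rf F))) := by
  obtain ⟨r, hrF⟩ : ∃ r : ℕ, Nat.card F = r := ⟨_, rfl⟩
  rw [hrF] at hF
  have : Fact r.Prime := ⟨hF⟩
  have : Fintype F := Fintype.ofFinite F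
  have hrc : (r : F) = 0 := by
    have h1 := Nat.cast_card_eq_zero F
    rwa [← Nat.card_eq_fintype_card, hrF] at h1
  have hch : CharP F r := by
    obtain ⟨r', hr'⟩ := CharP.exists F
    have h3 : r' ∣ r := (CharP.cast_eq_zero_iff F r' r).1 hrc
    rcases (Nat.dvd_prime hF).1 h3 with rfl | rfl
    · exact absurd rfl (CharP.char_ne_one F 1)
    · exact hr'
  have hodd : Odd (Nat.card F) := by
    rw [hrF]
    refine hF.odd_of_ne_two ?_
    rintro rfl
    exact h2 (by exact_mod_cast hrc)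
  exact fewAut_two_of_conj (omega_aut (r := r) hrF hm hev h2 hs)
    fun y z hy hz => comm_index hev h2 hodd hy hz

end

end Vale.Agent.P240.R2.H651.R1
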